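import Vale.Agent.P329.H6.FilX
import Vale.Agent.P329.H493.DynA
import Vale.Agent.P329.H842.RA

/-!
# Eventual cohomology over a code: reduction, rotation, inheritance
-/

namespace Vale.Agent.P329.H366
open Filter
open Vale.Agent.P329.H817 (TL)

variable {α : Type} {p : ℕ} {A : (List α → ZMod p) → Prop} {M : Filter (List α)}
  {Cap : (List α → ZMod p) → Prop}

/-! ### closure of `Alg0` -/

theorem Alg0.add (hA : Alg0 A) {f g : List α → ZMod p} (hf : A f) (hg : A g) :
    A fun v => f v + g v := hA.bin (fun a b => a + b) f g hf hg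

theorem Alg0.sub (hA : Alg0 A) {f g : List α → ZMod p} (hf : A f) (hg : A g) :
    A fun v => f v - g v := hA.bin (fun a b => a - b) f g hf hg

theorem Alg0.mul (hA : Alg0 A) {f g : List α → ZMod p} (hf : A f) (hg : A g) :
    A fun v => f v * g v := hA.bin (fun a b => a * b) f g hf hg

theorem Alg0.una (hA : Alg0 A) (Φ : ZMod p → ZMod p) {f : List α → ZMod p} (hf : A f) :
    A fun v => Φ (f v) := hA.bin (fun a _ => Φ a) f f hf hf

theorem Alg0.sum (hA : Alg0 A) {ι : Type*} (s : Finset ι) (f : ι → List α → ZMod p)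
    (hf : ∀ i, A (f i)) : A fun v => ∑ i ∈ s, f i v := by
  classical
  induction s using Finset.induction_on with
  | empty => simpa using hA.const 0
  | insert i s hi ih =>
    have : (fun v => ∑ j ∈ insert i s, f j v) = fun v => f i v + ∑ j ∈ s, f j v := by
      funext v; rw [Finset.sum_insert hi]
    rw [this]; exact hA.add (hf i) ih

theorem Alg0.sel [NeZero p] (hA : Alg0 A) {h : List α → ZMod p} (hh : A h)
    (c : ZMod p → List α → ZMod p) (hc : ∀ r, A (c r)) : A fun v => c (h v) v := by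
  classical
  have h1 : (fun v => c (h v) v) =
      fun v => ∑ r : ZMod p, (if h v = r then 1 else 0) * c r v := by
    funext v
    rw [Finset.sum_eq_single (h v)]
    · simp
    · intro b _ hb; simp [Ne.symm hb]
    · simp
  rw [h1]
  exact hA.sum _ _ fun r => hA.mul (hA.una (fun x => if x = r then 1 else 0) hh) (hc r)

theorem Alg.drop (hA : Alg A) {f : List α → ZMod p} (hf : A f) (i : ℕ) :
    A fun v => f (v.drop i) := by
  induction i with
  | zero => simpa using hf
  | succ i ih =>
    have : (fun v : List α => f (v.drop (i + 1))) = fun v => (fun u => f (u.drop i)) v.tail := by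
      funext v; simp [List.drop_tail]
    rw [this]; exact hA.tail _ ih

theorem Alg0.sep' [Fact p.Prime] (hA : Alg0 A) {ι : Type*} [Finite ι] (f : ι → List α → ZMod p)
    (hf : ∀ i, A (f i)) (S : Set (List α)) (a : List α → ZMod p)
    (h : ∀ v ∈ S, ∀ v' ∈ S, (∀ i, f i v = f i v') → a v = a v') :
    ∃ ψ, A ψ ∧ ∀ v ∈ S, a v = ψ v := by
  classical
  have := Fintype.ofFinite ι
  refine hA.sep (Finset.univ.image f) ?_ S a ?_
  · intro g hg
    obtain ⟨i, _, rfl⟩ := Finset.mem_image.1 hg
    exact hf i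
  · intro v hv v' hv' h'
    exact h v hv v' hv' fun i => h' _ (Finset.mem_image_of_mem _ (Finset.mem_univ i))

/-! ### eventual facts along a minimal filter -/

theorem MinInv.drop (hM : MinInv M) (i : ℕ) : Tendsto (fun v : List α => v.drop i) M M := by
  induction i with
  | zero => simp only [List.drop_zero]; exact tendsto_id
  | succ i ih =>
    have : (fun v : List α => v.drop (i + 1)) = (fun v => v.drop i) ∘ List.tail := by
      funext v; simp [List.drop_tail]
    rw [this]; exact ih.comp hM.inv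

theorem MinInv.ev_drop (hM : MinInv M) {q : List α → Prop} (h : ∀ᶠ v in M, q v) (i : ℕ) :
    ∀ᶠ v in M, q (v.drop i) := (hM.drop i).eventually h

theorem MinInv.ev_all (hM : MinInv M) {q : List α → Prop} (h : ∀ᶠ v in M, q v) (n : ℕ) :
    ∀ᶠ v in M, ∀ i ≤ n, q (v.drop i) := by
  have : ∀ᶠ v in M, ∀ i ∈ Finset.range (n + 1), q (v.drop i) :=
    (Filter.eventually_all_finset _).2 fun i _ => hM.ev_drop h i
  filter_upwards [this] with v hv i hi
  exact hv i (Finset.mem_range.2 (by omega))

theorem MinInv.many (hM : MinInv M) {S : Set (List α)} (hS : ∃ᶠ v in M, v ∈ S) [DecidablePred (· ∈ S)]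
    (n : ℕ) : ∃ J, ∀ᶠ v in M, n ≤ ((Finset.range J).filter fun i => v.drop i ∈ S).card := by
  obtain ⟨n0, h0⟩ := hM.syn hS
  induction n with
  | zero => exact ⟨0, by simp⟩
  | succ n ih =>
    obtain ⟨J, hJ⟩ := ih
    refine ⟨n0 + 1 + J, ?_⟩
    filter_upwards [h0, hM.ev_drop hJ (n0 + 1)] with v h1 h2
    obtain ⟨j, hj, hjS⟩ := h1
    rw [Finset.card_filter, Finset.sum_range_add]
    have h3 : 1 ≤ ∑ x ∈ Finset.range (n0 + 1), if v.drop x ∈ S then 1 else 0 := by
      calc 1 = (if v.drop j ∈ S then 1 else 0) := by simp [hjS]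
        _ ≤ _ := Finset.single_le_sum (f := fun x => if v.drop x ∈ S then 1 else 0)
            (fun i _ => by positivity) (Finset.mem_range.2 (by omega))
    have h4 : (∑ x ∈ Finset.range J, if v.drop (n0 + 1 + x) ∈ S then 1 else 0) =
        ((Finset.range J).filter fun i => (v.drop (n0 + 1)).drop i ∈ S).card := by
      rw [Finset.card_filter]
      refine Finset.sum_congr rfl fun i _ => ?_
      rw [List.drop_drop]
    rw [h4]
    omega

/-! ### walks -/

theorem NN_step {h : List α → ZMod p} (h0 : h [] = 0) (v : List α) :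
    NN h v = NN h v.tail + h v := by
  cases v with
  | nil => simp [NN_nil, h0]
  | cons b v => simpa using NN_cons h b v

theorem NN_drop {h : List α → ZMod p} (h0 : h [] = 0) (v : List α) (i : ℕ) :
    NN h v = NN h (v.drop i) + ∑ l ∈ Finset.range i, h (v.drop l) := by
  induction i with
  | zero => simp
  | succ i ih =>
    rw [Finset.sum_range_succ, ih, NN_step h0 (v.drop i), List.tail_drop]
    ring

theorem Sys.h_nil (Y : Sys α p Cap) {D : Y.Code} {h : List α → ZMod p} (hU : Y.U D h) :
    h [] = 0 := by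
  by_contra hne
  exact Y.U_cut D h hU [] hne (Y.w_nil D)

theorem take_eq_of_head {v v' : List α} {J : ℕ}
    (h : ∀ i < J, (v.drop i).head? = (v'.drop i).head?) : v.take J = v'.take J := by
  apply List.ext_getElem?
  intro i
  rcases Nat.lt_or_ge i J with hi | hi
  · rw [List.getElem?_take_of_lt hi, List.getElem?_take_of_lt hi]
    have := h i hi
    simpa [List.head?_drop] using this
  · rw [List.getElem?_eq_none (by simp; omega), List.getElem?_eq_none (by simp; omega)]

section red

variable (Y : Sys α p Cap) {D : Y.Code} {h : List α → ZMod p}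

/-- the class of functions `b (X v) v` -/
def AX (A : (List α → ZMod p) → Prop) (X : List α → ZMod p) (f : List α → ZMod p) : Prop :=
  ∃ b : ZMod p → List α → ZMod p, (∀ s, A (b s)) ∧ f = fun v => b (X v) v

theorem AX_alg0 (hA : Alg0 A) (X : List α → ZMod p) : Alg0 (AX A X) where
  const a := ⟨fun _ _ => a, fun _ => hA.const a, rfl⟩
  bin := by
    rintro Φ _ _ ⟨b, hb, rfl⟩ ⟨c, hc, rfl⟩
    exact ⟨fun s v => Φ (b s v) (c s v), fun s => hA.bin Φ _ _ (hb s) (hc s), rfl⟩

theorem AX_of (X : List α → ZMod p) {f : List α → ZMod p} (hf : A f) : AX A X f :=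
  ⟨fun _ => f, fun _ => hf, rfl⟩

theorem AX_X (hA : Alg0 A) (X : List α → ZMod p) : AX A X X :=
  ⟨fun s _ => s, fun s => hA.const s, rfl⟩

theorem loc_flag [Finite α] (hU : Y.U D h) (ρ : ZMod p) {v v' : List α} {J : ℕ}
    (h1 : ∀ i < J, ∀ b : α, (v.drop i).head? = some b ↔ (v'.drop i).head? = some b)
    (h2 : ∀ i < J, h (v.drop i) = h (v'.drop i)) (h3 : NN h v = NN h v') :
    v.take J = v'.take J ∧
    ∀ i < J, Y.w (Y.nx D h ρ) (v.drop i) = Y.w (Y.nx D h ρ) (v'.drop i) := by
  refine ⟨take_eq_of_head fun i hi => ?_, fun i hi => ?_⟩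
  · ext b; exact h1 i hi b
  · rw [Y.nx_w D h ρ hU, Y.nx_w D h ρ hU, h2 i hi]
    have h4 : NN h (v.drop i) = NN h (v'.drop i) := by
      have e1 := NN_drop (Y.h_nil hU) v i
      have e2 := NN_drop (Y.h_nil hU) v' i
      have e3 : ∑ l ∈ Finset.range i, h (v.drop l) = ∑ l ∈ Finset.range i, h (v'.drop l) :=
        Finset.sum_congr rfl fun l hl => h2 l (lt_trans (Finset.mem_range.1 hl) hi)
      rw [h3, e3] at e1
      rw [e2] at e1
      exact (add_right_cancel e1).symm
    rw [h4]

theorem reduce [Fact p.Prime] [Finite α] (hU : Y.U D h) (ρ : ZMod p) (hM : MinInv M)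
    (hf : ∃ᶠ v in M, Y.w (Y.nx D h ρ) v ≠ 0) {a : List α → ZMod p}
    (ha : Y.A (Y.nx D h ρ) a) :
    ∃ b : ZMod p → List α → ZMod p, (∀ s, Y.A D (b s)) ∧ ∀ᶠ v in M, a v = b (NN h v) v := by
  classical
  obtain ⟨n, hn⟩ := Y.loc _ a ha
  obtain ⟨J, hJ⟩ := hM.many (S := {v | Y.w (Y.nx D h ρ) v ≠ 0}) hf n
  set S : Set (List α) :=
    {v | n ≤ ((Finset.range J).filter fun i => Y.w (Y.nx D h ρ) (v.drop i) ≠ 0).card} with hS
  have hSM : ∀ᶠ v in M, v ∈ S := by simpa [hS] using hJ
  let f : (Fin J × α) ⊕ Fin J ⊕ Unit → List α → ZMod p := fun x =>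
    match x with
    | Sum.inl (i, b) => fun v => if (v.drop i).head? = some b then 1 else 0
    | Sum.inr (Sum.inl i) => fun v => h (v.drop i)
    | Sum.inr (Sum.inr _) => NN h
  have hf' : ∀ x, AX (Y.A D) (NN h) (f x) := by
    rintro (⟨i, b⟩ | i | _)
    · exact AX_of _ ((Y.alg D).drop (Y.letter D b) i)
    · exact AX_of _ ((Y.alg D).drop (Y.U_A D h hU) i)
    · exact AX_X (Y.alg D).toAlg0 _
  obtain ⟨ψ, ⟨b, hb, rfl⟩, h2⟩ := (AX_alg0 (Y.alg D).toAlg0 (NN h)).sep' f hf' S a (by
    intro v hv v' hv' he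
    by_cases hp : (1 : ZMod p) = 0
    · have : Subsingleton (ZMod p) := subsingleton_of_zero_eq_one hp.symm
      exact Subsingleton.elim _ _
    have key := loc_flag Y hU ρ (v := v) (v' := v') (J := J) (by
      intro i hi b
      have := he (Sum.inl (⟨i, hi⟩, b))
      simp only [f] at this
      by_cases h5 : (v.drop i).head? = some b <;> by_cases h6 : (v'.drop i).head? = some b <;>
        simp_all) (fun i hi => he (Sum.inr (Sum.inl ⟨i, hi⟩))) (he (Sum.inr (Sum.inr ())))
    exact hn J v v' key.1 (fun i hi => by rw [key.2 i hi]) hv)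
  exact ⟨b, hb, hSM.mono fun v hv => h2 v hv⟩

end red

end Vale.Agent.P329.H366
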