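import Vale.Agent.P329.H366.Rot

/-!
# The core induction

`Lm m`: every local function is good for `m` zones; `Sm m`: every sum of a label is good for `m`
zones.  `Lm (m+1)` follows from `Lm m`, `Sm m` (one mark), `Sm m` from `Lm m` (statuses).
-/

namespace Vale.Agent.P329.H366
open Filter
open Vale.Agent.P329.H817 (TL)
open Vale.Agent.P329.H842

variable {α : Type} {p : ℕ} {A : (List α → ZMod p) → Prop} {Cap : (List α → ZMod p) → Prop}
  {FF : Filter ℕ} {P P' : Ultrafilter (List α)}

/-! ### the type of a zone -/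

theorem eqv_ev (hA : Alg A) (he : Eqv A P P') {f : List α → ZMod p} (hf : A f) (t : ZMod p) :
    (∀ᶠ v in MM FF P, f v = t) ↔ ∀ᶠ v in MM FF P', f v = t :=
  MM_eqv hA he (ind_lev hA.toAlg0 hf t)

theorem eqv_cob (hA : Alg A) (he : Eqv A P P') {h : List α → ZMod p} (hh : A h) :
    Cob A (MM FF P) h ↔ Cob A (MM FF P') h := by
  refine exists_congr fun ψ => and_congr_right fun hψ => ?_
  have := eqv_ev (FF := FF) hA he (hA.toAlg0.sub hh (hA.toAlg0.sub hψ (hA.tail _ hψ))) 0
  simpa only [sub_eq_zero] using this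

theorem eqv_good (hA : Alg A) (he : Eqv A P P') {h : List α → ZMod p} (hh : A h) :
    Good A (MM FF P) h ↔ Good A (MM FF P') h := by
  classical
  have h1 := eqv_cob (FF := FF) hA he hh
  have h2 := eqv_ev (FF := FF) hA he hh 0
  have h3 := eqv_ev (FF := FF) hA he (hA.toAlg0.una (fun x => if x = 0 ∨ x = 1 then 0 else 1) hh) 0
  have h4 : ∀ Q : Ultrafilter (List α), (1 : ZMod p) ≠ 0 →
      ((∀ᶠ v in MM FF Q, (if h v = 0 ∨ h v = 1 then (0 : ZMod p) else 1) = 0) ↔
        ∀ᶠ v in MM FF Q, h v = 0 ∨ h v = 1) := by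
    intro Q h10
    refine Filter.eventually_congr (Filter.Eventually.of_forall fun v => ?_)
    by_cases h5 : h v = 0 ∨ h v = 1 <;> simp [h5, h10]
  by_cases h10 : (1 : ZMod p) = 0
  · have : Subsingleton (ZMod p) := subsingleton_of_zero_eq_one h10.symm
    have h5 : ∀ Q : Ultrafilter (List α), Cob A (MM FF Q) h := fun Q =>
      ⟨h, hh, Filter.Eventually.of_forall fun v => Subsingleton.elim _ _⟩
    have h6 : ∀ Q : Ultrafilter (List α), ¬ ∃ᶠ v in MM FF Q, h v ≠ 0 := fun Q hQ => by
      refine hQ (Filter.Eventually.of_forall fun v => ?_)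
      simpa using Subsingleton.elim _ _
    unfold Good
    simp [h5, h6]
  · unfold Good
    rw [h1, ← h4 P h10, ← h4 P' h10, h3]
    have h7 : (∃ᶠ v in MM FF P, h v ≠ 0) ↔ ∃ᶠ v in MM FF P', h v ≠ 0 := by
      have e1 : (∃ᶠ v in MM FF P, h v ≠ 0) ↔ ¬ ∀ᶠ v in MM FF P, h v = 0 :=
        Filter.not_eventually.symm
      have e2 : (∃ᶠ v in MM FF P', h v ≠ 0) ↔ ¬ ∀ᶠ v in MM FF P', h v = 0 :=
        Filter.not_eventually.symm
      rw [e1, e2, h2]
    rw [h7]

theorem Good.freq {M : Filter (List α)} (hA : Alg0 A) {h : List α → ZMod p} (hg : Good A M h) :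
    ∃ᶠ v in M, h v ≠ 0 := by
  rcases hg with hg | hg
  · intro hc
    refine hg ⟨fun _ => 0, hA.const 0, ?_⟩
    filter_upwards [hc] with v e1
    simpa using e1
  · exact hg.2

/-! ### strands -/

section strand

variable [Fact p.Prime] [Finite α] (Y : Sys α p Cap) (hFF : MinShift FF) {D : Y.Code}
  {h : List α → ZMod p}

include hFF

theorem many_rec {S : Set (List α)} (hS : ∃ᶠ v in MM FF P, v ∈ S) [DecidablePred (· ∈ S)] (n : ℕ) :
    ∃ J, ∀ᶠ v in (P : Filter (List α)), n ≤ ((Finset.range J).filter fun i => v.drop i ∈ S).card := by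
  induction n with
  | zero => exact ⟨0, by simp⟩
  | succ n ih =>
    obtain ⟨J, hJ⟩ := ih
    obtain ⟨i, hi, h1⟩ := MM_rec hFF hS J
    refine ⟨i + 1, ?_⟩
    filter_upwards [hJ, h1] with v h2 h3
    have h4 : insert i ((Finset.range J).filter fun i => v.drop i ∈ S) ⊆
        (Finset.range (i + 1)).filter fun i => v.drop i ∈ S := by
      intro j hj
      rcases Finset.mem_insert.1 hj with rfl | hj
      · exact Finset.mem_filter.2 ⟨Finset.mem_range.2 (by omega), h3⟩
      · have := Finset.mem_filter.1 hj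
        exact Finset.mem_filter.2 ⟨Finset.mem_range.2
          (by have := Finset.mem_range.1 this.1; omega), this.2⟩
    have h5 := Finset.card_le_card h4
    rw [Finset.card_insert_of_notMem] at h5
    · omega
    · intro hj
      have := Finset.mem_range.1 (Finset.mem_filter.1 hj).1
      omega

theorem hloc (hU : Y.U D h) (ρ : ZMod p) (hg : Good (Y.A D) (MM FF P) h)
    (he : Eqv (Y.A D) P P') (t : ZMod p) (ht : ∀ᶠ v in (P' : Filter (List α)), NN h v = t)
    (S : Set (List α)) (hS : Y.A (Y.nx D h ρ) (ind p S)) (hSP : S ∈ P') :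
    ∃ V, Y.A D (ind p V) ∧ V ∈ P' ∧ ∀ v ∈ V, NN h v = t → v ∈ S := by
  classical
  obtain ⟨n, hn⟩ := Y.loc _ _ hS
  have hg' := (eqv_good (Y.alg D) he (Y.U_A D h hU)).1 hg
  have hcut := (good_nx Y hU ρ (MM_minInv hFF P') hg').1
  obtain ⟨J, hJ⟩ := many_rec hFF (S := {v | Y.w (Y.nx D h ρ) v ≠ 0}) hcut n
  let f : (Fin J × α) ⊕ Fin J → List α → ZMod p := fun x =>
    match x with
    | Sum.inl (i, b) => fun v => if (v.drop i).head? = some b then 1 else 0
    | Sum.inr i => fun v => h (v.drop i)
  have hf' : ∀ x, Y.A D (f x) := by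
    rintro (⟨i, b⟩ | i)
    · exact (Y.alg D).drop (Y.letter D b) i
    · exact (Y.alg D).drop (Y.U_A D h hU) i
  choose c hc using fun x => ev_const P' (f x)
  refine ⟨{v | ∀ x, f x v = c x}, ?_, ?_, ?_⟩
  · obtain ⟨ψ, h1, h2⟩ := (Y.alg D).toAlg0.sep' f hf' Set.univ (ind p {v | ∀ x, f x v = c x}) (by
      intro v _ v' _ he
      simp only [ind, Set.mem_setOf_eq, he])
    have : ind p {v | ∀ x, f x v = c x} = ψ := by
      funext v; exact h2 v trivial
    rw [this]; exact h1
  · exact (Filter.eventually_all.2 hc : ∀ᶠ v in (P' : Filter (List α)), ∀ x, f x v = c x)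
  · intro v hv hvt
    have h10 : (1 : ZMod p) ≠ 0 := one_ne_zero
    obtain ⟨v0, h1, h2, h3, h4⟩ :=
      ((Filter.eventually_all.2 hc).and (hJ.and (ht.and hSP))).exists
    have he : ∀ x, f x v0 = f x v := fun x => by rw [h1 x, hv x]
    have key := loc_flag Y hU ρ (v := v0) (v' := v) (J := J) (by
      intro i hi b
      have := he (Sum.inl (⟨i, hi⟩, b))
      simp only [f] at this
      by_cases h5 : (v0.drop i).head? = some b <;> by_cases h6 : (v.drop i).head? = some b <;>
        simp_all) (fun i hi => he (Sum.inr ⟨i, hi⟩)) (by rw [h3, hvt])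
    have h5 := hn J v0 v key.1 (fun i hi => by rw [key.2 i hi]) h2
    rw [ind_mem h4] at h5
    by_contra h6
    rw [ind_not_mem h6] at h5
    exact h10 h5

/-- passing to the next code -/
theorem desc (hadd : ∀ F G, Cap F → Cap G → Cap fun X => F X + G X) (hU : Y.U D h) (ρ : ZMod p)
    (Ps : List (Ultrafilter (List α))) (hg : ∀ P ∈ Ps, Good (Y.A D) (MM FF P) h)
    (G : List α → ZMod p)
    (H : ∀ Ps', List.Forall₂ (Eqv (Y.A D)) Ps Ps' → RA Cap (Y.A (Y.nx D h ρ)) Ps' G) :
    RA Cap (Y.A D) Ps G :=
  RA.descent hadd (Y.alg D).toAlg0 (Y.alg _).toAlg0 (Y.nx_A D h ρ hU) (NN h) (Y.nx_N D h ρ hU) Ps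
    (fun P hP P' he t ht S hS hSP => hloc Y hFF hU ρ (hg P hP) he t ht S hS hSP) G H

end strand

/-! ### lists of zones -/

theorem forall2_mem {β : Type*} {R : β → β → Prop} : ∀ {l l' : List β}, List.Forall₂ R l l' →
    ∀ y ∈ l', ∃ x ∈ l, R x y := by
  intro l l' h
  induction h with
  | nil => simp
  | cons h1 _ ih =>
    intro y hy
    rcases List.mem_cons.1 hy with rfl | hy
    · exact ⟨_, List.mem_cons_self, h1⟩
    · obtain ⟨x, hx, hr⟩ := ih y hy
      exact ⟨x, List.mem_cons_of_mem _ hx, hr⟩

open Classical in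
theorem countP_mono {β : Type*} {R : β → β → Prop} {b b' : β → Prop} :
    ∀ {l l' : List β}, List.Forall₂ R l l' →
    (∀ x y, y ∈ l' → R x y → b' y → b x) →
    l'.countP (fun y => decide (b' y)) ≤ l.countP (fun x => decide (b x)) := by
  intro l l' h
  induction h with
  | nil => simp
  | @cons x y l l' h1 _ ih =>
    intro H
    rw [List.countP_cons, List.countP_cons]
    have h2 := ih fun x y hy => H x y (List.mem_cons_of_mem _ hy)
    by_cases h3 : b' y
    · have h4 := H x y List.mem_cons_self h1 h3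
      simp only [h3, h4, decide_true, if_true]
      omega
    · simp only [h3, decide_false]
      have : (if (false : Bool) = true then 1 else 0) = 0 := by simp
      omega

open Classical in
theorem countP_lt {β : Type*} {R : β → β → Prop} {b b' : β → Prop} :
    ∀ {l l' : List β}, List.Forall₂ R l l' →
    (∀ x y, y ∈ l' → R x y → b' y → b x) → (y0 : β) → y0 ∈ l' →
    (∀ x, R x y0 → b x) → ¬ b' y0 →
    l'.countP (fun y => decide (b' y)) < l.countP (fun x => decide (b x)) := by
  intro l l' h
  induction h with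
  | nil => intro _ y0 h; simp at h
  | @cons x y l l' h1 h1' ih =>
    intro H y0 hy0 hb hb'
    rw [List.countP_cons, List.countP_cons]
    rcases List.mem_cons.1 hy0 with rfl | hy0
    · have h2 := countP_mono h1' fun x y hy => H x y (List.mem_cons_of_mem _ hy)
      have h3 := hb x h1
      simp only [h3, hb', decide_true, decide_false, if_true]
      have : (if (false : Bool) = true then 1 else 0) = 0 := by simp
      omega
    · have h2 := ih (fun x y hy => H x y (List.mem_cons_of_mem _ hy)) y0 hy0 hb hb'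
      by_cases h3 : b' y
      · have h4 := H x y List.mem_cons_self h1 h3
        simp only [h3, h4, decide_true, if_true]
        omega
      · simp only [h3, decide_false]
        have : (if (false : Bool) = true then 1 else 0) = 0 := by simp
        omega

/-! ### sums of labels -/

theorem NN_congr_sum {ι : Type*} (s : Finset ι) (f : ι → List α → ZMod p) (v : List α) :
    NN (fun v => ∑ i ∈ s, f i v) v = ∑ i ∈ s, NN (f i) v := by
  induction v with
  | nil => simp [NN_nil]
  | cons b v ih => simp only [NN_cons, ih, Finset.sum_add_distrib]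

theorem NN_sub (f g : List α → ZMod p) (v : List α) :
    NN (fun v => f v - g v) v = NN f v - NN g v := by
  induction v with
  | nil => simp [NN_nil]
  | cons b v ih => simp only [NN_cons, ih]; ring

theorem NN_add (f g : List α → ZMod p) (v : List α) :
    NN (fun v => f v + g v) v = NN f v + NN g v := by
  induction v with
  | nil => simp [NN_nil]
  | cons b v ih => simp only [NN_cons, ih]; ring

theorem NN_mul (c : ZMod p) (f : List α → ZMod p) (v : List α) :
    NN (fun v => c * f v) v = c * NN f v := by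
  induction v with
  | nil => simp [NN_nil]
  | cons b v ih => simp only [NN_cons, ih]; ring

theorem NN_tel (η : List α → ZMod p) (v : List α) :
    NN (fun v => η v - η v.tail) v = η v - η [] := by
  induction v with
  | nil => simp [NN_nil]
  | cons b v ih => simp only [NN_cons, ih, List.tail_cons]; ring

theorem RA.smul [NeZero p] (hadd : ∀ F G, Cap F → Cap G → Cap fun X => F X + G X) (hA : Alg0 A)
    {Ps : List (Ultrafilter (List α))} (h0 : RA Cap A Ps fun _ => 0) {G : List α → ZMod p}
    (hG : RA Cap A Ps G) (c : ZMod p) : RA Cap A Ps fun v => c * G v := by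
  have h1 := RA.sum hadd hA (Finset.range c.val) (fun _ => G) h0 (fun _ _ => hG)
  have h2 : (fun X => ∑ _i ∈ Finset.range c.val, G X) = fun v => c * G v := by
    funext v
    rw [Finset.sum_const, Finset.card_range, nsmul_eq_mul, ZMod.natCast_val, ZMod.cast_id]
  rwa [h2] at h1

end Vale.Agent.P329.H366
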