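import Vale.Agent.P329.H366.Core

/-!
# The induction on (marks, bad zones, memory)
-/

namespace Vale.Agent.P329.H366
open Filter
open Vale.Agent.P329.H817 (TL)
open Vale.Agent.P329.H842

section core

variable {α : Type} {p : ℕ} [Fact p.Prime] [Finite α] {Cap : (List α → ZMod p) → Prop}
  (Y : Sys α p Cap) {FF : Filter ℕ}

/-- all zones are good for the charge of the code -/
def Zn (FF : Filter ℕ) (D : Y.Code) (Ps : List (Ultrafilter (List α))) : Prop :=
  ∀ P ∈ Ps, Good (Y.A D) (MM FF P) (Y.w D)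

def Lm (FF : Filter ℕ) (m : ℕ) : Prop := ∀ (D : Y.Code) (Ps : List (Ultrafilter (List α))),
  Ps.length = m → Zn Y FF D Ps → ∀ G, Y.A D G → RA Cap (Y.A D) Ps G

def Sm (FF : Filter ℕ) (m : ℕ) : Prop := ∀ (D : Y.Code) (Ps : List (Ultrafilter (List α))),
  Ps.length = m → Zn Y FF D Ps → ∀ g, Y.A D g → (∀ v, g v ≠ 0 → Y.w D v ≠ 0) →
    RA Cap (Y.A D) Ps (NN g)

/-- bad zones: the label does not vanish and the charge is a coboundary -/
def Bad (FF : Filter ℕ) (D : Y.Code) (g : List α → ZMod p) (P : Ultrafilter (List α)) : Prop :=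
  (¬ ∀ᶠ v in MM FF P, g v = 0) ∧ Cob (Y.A D) (MM FF P) (Y.w D)

variable (hFF : MinShift FF) (hadd : ∀ F G, Cap F → Cap G → Cap fun X => F X + G X)

theorem Lm_zero : Lm Y FF 0 := by
  intro D Ps hl _ G hG
  rw [List.length_eq_zero_iff] at hl
  subst hl
  exact Y.cap D G hG

include hFF hadd

theorem Lm_succ {m : ℕ} (hL : Lm Y FF m) (hS : Sm Y FF m) : Lm Y FF (m + 1) := by
  intro D Ps hl hZ G hG
  cases Ps with
  | nil => simp at hl
  | cons P Ps =>
    have hZ' : Zn Y FF D Ps := fun Q hQ => hZ Q (List.mem_cons_of_mem _ hQ)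
    have hl' : Ps.length = m := by simpa using hl
    have hfr := (hZ P List.mem_cons_self).freq (Y.alg D).toAlg0
    obtain ⟨i, _, hi⟩ := MM_rec hFF (S := {v | Y.w D v ≠ 0}) hfr 0
    refine ⟨{v | Y.w D (v.drop i) ≠ 0}, hi, ?_, fun k hk hs => ?_⟩
    · have h1 := ind_compl (Y.alg D).toAlg0 (ind_lev (Y.alg D).toAlg0
        ((Y.alg D).drop (Y.U_A D _ (Y.w_U D)) i) 0)
      exact h1
    · obtain ⟨g, G', h1, h2, h3, h4⟩ := Y.mark D k G i hk hG fun v hv => ⟨i, le_rfl, hs v hv⟩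
      rw [h4]
      exact RA.add hadd (Y.alg D).toAlg0 (hS D Ps hl' hZ' g h1 h2) (hL D Ps hl' hZ' G' h3)

/-- good zones stay good in the next code -/
theorem Zn_nx {D : Y.Code} {h : List α → ZMod p} (hU : Y.U D h) (ρ : ZMod p)
    {Ps Ps' : List (Ultrafilter (List α))} (hg : ∀ P ∈ Ps, Good (Y.A D) (MM FF P) h)
    (he : List.Forall₂ (Eqv (Y.A D)) Ps Ps') : Zn Y FF (Y.nx D h ρ) Ps' := by
  intro P' hP'
  obtain ⟨P, hP, hPP⟩ := forall2_mem he P' hP'
  exact (good_nx Y hU ρ (MM_minInv hFF P') ((eqv_good (Y.alg D) hPP (Y.U_A D h hU)).1 (hg P hP))).2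

/-- walks of units with good zones -/
theorem walk {m : ℕ} (hL : Lm Y FF m) {D : Y.Code} {h : List α → ZMod p} (hU : Y.U D h)
    {Ps : List (Ultrafilter (List α))} (hl : Ps.length = m)
    (hg : ∀ P ∈ Ps, Good (Y.A D) (MM FF P) h) : RA Cap (Y.A D) Ps (NN h) := by
  refine desc Y hFF hadd hU 0 Ps hg _ fun Ps' he => ?_
  exact hL _ Ps' (he.length_eq ▸ hl) (Zn_nx Y hFF hadd hU 0 hg he) _ (Y.nx_N D h 0 hU)

/-- a set which separates the zone `P0` from the other ones, as far as possible -/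
theorem sepAll (C : Y.Code) (P0 : Ultrafilter (List α)) (Ps : List (Ultrafilter (List α))) :
    ∃ S : Set (List α), Y.A C (ind p S) ∧ S ∈ MM FF P0 ∧ ∀ P ∈ Ps, Sᶜ ∈ MM FF P ∨
      ∀ f, Y.A C f → (∀ᶠ v in MM FF P0, f v = 0) → ∀ᶠ v in MM FF P, f v = 0 := by
  induction Ps with
  | nil => exact ⟨Set.univ, ind_univ (Y.alg C).toAlg0, Filter.univ_mem, by simp⟩
  | cons P Ps ih =>
    obtain ⟨S, h1, h2, h3⟩ := ih
    rcases separate (Y.alg C) (MM_minInv hFF P0) (MM_minInv hFF P) with ⟨T, h4, h5, h6⟩ | h4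
    · refine ⟨S ∩ T, ind_inter (Y.alg C).toAlg0 h1 h4, Filter.inter_mem h2 h5, ?_⟩
      intro Q hQ
      rcases List.mem_cons.1 hQ with rfl | hQ
      · exact Or.inl (Filter.mem_of_superset h6 (by
          rw [Set.compl_inter]; exact Set.subset_union_right))
      · rcases h3 Q hQ with h7 | h7
        · exact Or.inl (Filter.mem_of_superset h7 (by
            rw [Set.compl_inter]; exact Set.subset_union_left))
        · exact Or.inr h7
    · refine ⟨S, h1, h2, ?_⟩
      intro Q hQ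
      rcases List.mem_cons.1 hQ with rfl | hQ
      · exact Or.inr h4
      · exact h3 Q hQ

/-- gauge: make the label vanish along `P0` -/
theorem gauge (C : Y.Code) {φ : List α → ZMod p} (hφ : Y.A C φ)
    (hφc : ∀ v, φ v ≠ 0 → Y.w C v ≠ 0) (P0 : Ultrafilter (List α))
    (Ps : List (Ultrafilter (List α))) (h0 : Good (Y.A C) (MM FF P0) (Y.w C))
    (hZ : Zn Y FF C Ps) (hc : Cob (Y.A C) (MM FF P0) φ) :
    ∃ φ' f' : List α → ZMod p, Y.A C φ' ∧ (∀ v, φ' v ≠ 0 → Y.w C v ≠ 0) ∧ Y.A C f' ∧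
      (NN φ = fun v => NN φ' v + f' v) ∧ (∀ᶠ v in MM FF P0, φ' v = 0) ∧
      ∀ P ∈ Ps, (∀ᶠ v in MM FF P, φ v = 0) → ∀ᶠ v in MM FF P, φ' v = 0 := by
  classical
  obtain ⟨ψ, hψ, h1⟩ := hc
  obtain ⟨S, h2, h3, h4⟩ := sepAll Y hFF hadd C P0 Ps
  have hA := (Y.alg C).toAlg0
  set f : List α → ZMod p := fun v => ind p S v * ψ v with hf
  have hfA : Y.A C f := hA.mul h2 hψ
  obtain ⟨f', h5, h6⟩ := Y.til C f hfA
  have hnil : f' [] = 0 := by rw [h6]; simp [Y.w_nil]
  have hM0 := MM_minInv hFF P0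
  have hfS : ∀ᶠ v in MM FF P0, f v = ψ v := by
    filter_upwards [h3] with v hv
    rw [hf]
    simp only [ind_mem hv, one_mul]
  have e1 : ∀ᶠ v in MM FF P0, f' v = ψ v := by
    have h7 : ∀ᶠ v in MM FF P0, Y.w C v = 0 → f v = f v.tail := by
      filter_upwards [h1, hfS, hM0.inv.eventually hfS] with v e1 e2 e3 e4
      have e5 : φ v = 0 := by
        by_contra h; exact hφc v h e4
      rw [e2, e3]
      rw [e5] at e1
      exact (sub_eq_zero.1 e1.symm)
    have h8 := til_ev Y hM0 (h0.freq hA) h6 h7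
    filter_upwards [h8, hfS] with v e1 e2
    rw [e1, e2]
  have e2 : ∀ᶠ v in MM FF P0, φ v - (f' v - f' v.tail) = 0 := by
    filter_upwards [h1, e1, hM0.inv.eventually e1] with v a b c
    rw [a, b, c]; ring
  have hφ'A : Y.A C fun v => φ v - (f' v - f' v.tail) :=
    hA.sub hφ (hA.sub h5 ((Y.alg C).tail _ h5))
  refine ⟨fun v => φ v - (f' v - f' v.tail), f', hφ'A, ?_, h5, NN_gauge hnil, e2, ?_⟩
  · intro v hv hw
    apply hv
    have a1 : φ v = 0 := by
      by_contra h; exact hφc v h hw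
    have a2 : f' v = f' v.tail := by
      by_cases hv0 : v = []
      · subst hv0; rfl
      · rw [h6 v, if_neg (by simpa using hw), if_neg hv0]
    show φ v - (f' v - f' v.tail) = 0
    rw [a1, ← a2]; ring
  · intro P hP hφ0
    rcases h4 P hP with h7 | h7
    · have hM := MM_minInv hFF P
      have b1 : ∀ᶠ v in MM FF P, f v = 0 := by
        filter_upwards [h7] with v hv
        rw [hf]
        simp only [ind_not_mem hv, zero_mul]
      have b2 : ∀ᶠ v in MM FF P, f' v = 0 := by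
        have h8 := til_ev Y hM ((hZ P hP).freq hA) h6 (by
          filter_upwards [b1, hM.inv.eventually b1] with v c1 c2 _
          rw [c1, c2])
        filter_upwards [h8, b1] with v c1 c2
        rw [c1, c2]
      filter_upwards [hφ0, b2, hM.inv.eventually b2] with v c1 c2 c3
      show φ v - (f' v - f' v.tail) = 0
      rw [c1, c2, c3]; ring
    · exact h7 _ hφ'A e2

open Classical in
/-- the induction step of `Sm` -/
theorem Sm_aux {m : ℕ} (hL : Lm Y FF m) : ∀ (n : ℕ) (D : Y.Code) (Ps : List (Ultrafilter (List α))),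
    Ps.length = m → Zn Y FF D Ps → ∀ g, Y.A D g → (∀ v, g v ≠ 0 → Y.w D v ≠ 0) →
    Ps.countP (fun P => decide (Bad Y FF D g P)) ≤ n → RA Cap (Y.A D) Ps (NN g) := by
  intro n
  induction n using Nat.strong_induction_on with
  | _ n ihn =>
  -- memory
  suffices H : ∀ (k : ℕ) (D : Y.Code) (Ps : List (Ultrafilter (List α))),
      Ps.length = m → Zn Y FF D Ps → ∀ g, Y.Mem D k g →
      Ps.countP (fun P => decide (Bad Y FF D g P)) ≤ n → RA Cap (Y.A D) Ps (NN g) by
    intro D Ps hl hZ g hg hgc hn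
    obtain ⟨k, hk⟩ := Y.mem D g hg hgc
    exact H k D Ps hl hZ g hk hn
  intro k
  induction k with
  | succ k ihk =>
    intro D Ps hl hZ g hk hn
    have hU := Y.w_U D
    have h0 : RA Cap (Y.A D) Ps fun _ => 0 := hL D Ps hl hZ _ ((Y.alg D).toAlg0.const 0)
    have e1 : NN g = fun v => ∑ ρ : ZMod p, NN (fun v => if NN (Y.w D) v = ρ then g v else 0) v := by
      funext v
      rw [← NN_congr_sum]
      congr 1
      funext v
      simp
    rw [e1]
    refine RA.sum hadd (Y.alg D).toAlg0 _ _ h0 fun ρ _ => ?_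
    refine desc Y hFF hadd hU ρ Ps hZ _ fun Ps' he => ?_
    refine ihk _ Ps' (he.length_eq ▸ hl) (Zn_nx Y hFF hadd hU ρ hZ he) _ (Y.arr D k g ρ hk) ?_
    refine le_trans (countP_mono he fun P P' hP' hPP hb => ?_) hn
    refine ⟨fun hc => hb.1 ?_, ?_⟩
    · have := (eqv_ev (Y.alg D) hPP (Y.Mem_A D _ g hk) 0).1 hc
      filter_upwards [this] with v hv
      simp [hv]
    · by_contra hc
      have hc' := fun h => hc ((eqv_cob (Y.alg D) hPP (Y.U_A D _ hU)).2 h)
      exact (noncob_nx Y hU ρ (MM_minInv hFF P') hc').2 hb.2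
  | zero =>
    intro D Ps hl hZ g hk hn
    have hU := Y.w_U D
    have hgA := Y.Mem_A D _ g hk
    have h0 : RA Cap (Y.A D) Ps fun _ => 0 := hL D Ps hl hZ _ ((Y.alg D).toAlg0.const 0)
    choose φ η hφA hφc hφU hη hid h9 using fun ρ => Y.null D g ρ hk
    have e0 : ∀ v, g v = ∑ ρ : ZMod p, (-ρ) * (φ ρ v + (η ρ v - η ρ v.tail)) := by
      intro v
      have e1 : ∀ ρ : ZMod p, (-ρ) * (φ ρ v + (η ρ v - η ρ v.tail)) =
          g v * (Y.w D v)⁻¹ * ((-ρ) * (if NN (Y.w D) v.tail = ρ then 1 else 0) +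
            ρ * (if NN (Y.w D) v = ρ then 1 else 0)) := by
        intro ρ
        have := hid ρ v
        have e2 : φ ρ v + (η ρ v - η ρ v.tail) = φ ρ v + η ρ v - η ρ v.tail := by ring
        rw [e2, ← this]; ring
      simp only [e1]
      rw [← Finset.mul_sum, Finset.sum_add_distrib]
      have e3 : ∑ ρ : ZMod p, (-ρ) * (if NN (Y.w D) v.tail = ρ then 1 else 0) =
          -(NN (Y.w D) v.tail) := by simp
      have e4 : ∑ ρ : ZMod p, ρ * (if NN (Y.w D) v = ρ then 1 else 0) = NN (Y.w D) v := by simp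
      rw [e3, e4]
      have e5 := NN_step (Y.h_nil hU) v
      rw [e5]
      by_cases hw : Y.w D v = 0
      · have : g v = 0 := by
          by_contra h; exact Y.Mem_cut D _ g hk v h hw
        simp [this]
      · field_simp
        ring
    have e1 : NN g = fun v => ∑ ρ : ZMod p, ((-ρ) * NN (φ ρ) v + (-ρ) * (η ρ v - η ρ [])) := by
      funext v
      have : g = fun v => ∑ ρ : ZMod p, (-ρ) * (φ ρ v + (η ρ v - η ρ v.tail)) := funext e0
      conv_lhs => rw [this]
      rw [NN_congr_sum]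
      refine Finset.sum_congr rfl fun ρ _ => ?_
      rw [NN_mul, NN_add, NN_tel]; ring
    rw [e1]
    refine RA.sum hadd (Y.alg D).toAlg0 _ _ h0 fun ρ _ => ?_
    refine desc Y hFF hadd hU ρ Ps hZ _ fun Ps' he => ?_
    have hl' : Ps'.length = m := he.length_eq ▸ hl
    have hZ' := Zn_nx Y hFF hadd hU ρ hZ he
    set C := Y.nx D (Y.w D) ρ with hC
    have hA' := (Y.alg C).toAlg0
    have h0' : RA Cap (Y.A C) Ps' fun _ => 0 := hL C Ps' hl' hZ' _ (hA'.const 0)
    refine RA.add hadd hA' ?_ ?_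
    swap
    · exact hL C Ps' hl' hZ' _ (hA'.mul (hA'.const _) (hA'.sub (hη ρ) (hA'.const _)))
    refine RA.smul hadd hA' h0' ?_ _
    -- now `NN (φ ρ)` over `C`
    have hflat : ∀ P P', P' ∈ Ps' → Eqv (Y.A D) P P' → (∀ᶠ v in MM FF P, g v = 0) →
        ∀ᶠ v in MM FF P', φ ρ v = 0 := by
      intro P P' hP' hPP hg0
      exact null_fl Y (MM_minInv hFF P') ((hZ' P' hP').freq hA') (h9 ρ)
        ((eqv_ev (Y.alg D) hPP hgA 0).1 hg0)
    by_cases hOK : ∀ P' ∈ Ps', (∀ᶠ v in MM FF P', φ ρ v = 0) ∨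
        ¬ Cob (Y.A C) (MM FF P') fun v => Y.w C v + φ ρ v
    · have h1 : RA Cap (Y.A C) Ps' (NN fun v => Y.w C v + φ ρ v) := by
        refine walk Y hFF hadd hL (hφU ρ) hl' fun P' hP' => ?_
        rcases hOK P' hP' with h | h
        · exact (hZ' P' hP').congr (h.mono fun v hv => by rw [hv, add_zero])
        · exact Or.inl h
      have h2 : RA Cap (Y.A C) Ps' (NN (Y.w C)) := walk Y hFF hadd hL (Y.w_U C) hl' hZ'
      have h3 := RA.add hadd hA' h1 (RA.smul hadd hA' h0' h2 (-1))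
      have h4 : (fun X => NN (fun v => Y.w C v + φ ρ v) X + -1 * NN (Y.w C) X) = NN (φ ρ) := by
        funext v
        rw [NN_add]; ring
      rwa [h4] at h3
    · push_neg at hOK
      obtain ⟨P0, hP0, hn1', hn2⟩ := hOK
      have hn1 : ¬ ∀ᶠ v in MM FF P0, φ ρ v = 0 := Filter.not_eventually.2 hn1'
      have hbad0 : ∀ P, Eqv (Y.A D) P P0 → Bad Y FF D g P := by
        intro P hPP
        refine ⟨fun hc => ?_, ?_⟩
        · exact hn1 (hflat P P0 hP0 hPP hc)
        · by_contra hc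
          have hc' := fun h => hc ((eqv_cob (Y.alg D) hPP (Y.U_A D _ hU)).2 h)
          exact null_noncob Y ρ (MM_minInv hFF P0) hc' hgA (hη ρ) (hid ρ) hn2
      have hmono : ∀ φ' : List α → ZMod p,
          (∀ P' ∈ Ps', (∀ᶠ v in MM FF P', φ ρ v = 0) → ∀ᶠ v in MM FF P', φ' v = 0) →
          ∀ P P', P' ∈ Ps' → Eqv (Y.A D) P P' → Bad Y FF C φ' P' → Bad Y FF D g P := by
        intro φ' h' P P' hP' hPP hb
        refine ⟨fun hc => hb.1 (h' P' hP' (hflat P P' hP' hPP hc)), ?_⟩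
        by_contra hc
        have hc' := fun h => hc ((eqv_cob (Y.alg D) hPP (Y.U_A D _ hU)).2 h)
        exact (noncob_nx Y hU ρ (MM_minInv hFF P') hc').2 hb.2
      by_cases hcw : Cob (Y.A C) (MM FF P0) (Y.w C)
      · have hcφ : Cob (Y.A C) (MM FF P0) (φ ρ) := by
          refine (hn2.sub_cob hA' hcw).congr (Filter.Eventually.of_forall fun v => ?_)
          ring
        obtain ⟨φ', f', g1, g2, g3, g4, g5, g6⟩ := gauge Y hFF hadd C (hφA ρ) (hφc ρ) P0 Ps'
          (hZ' P0 hP0) hZ' hcφ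
        rw [g4]
        refine RA.add hadd hA' ?_ (hL C Ps' hl' hZ' f' g3)
        have hlt := countP_lt (b := Bad Y FF D g) (b' := Bad Y FF C φ') he
          (hmono φ' g6) P0 hP0 hbad0 (fun hb => hb.1 g5)
        exact ihn _ (lt_of_lt_of_le hlt hn) C Ps' hl' hZ' φ' g1 g2 le_rfl
      · have hlt := countP_lt (b := Bad Y FF D g) (b' := Bad Y FF C (φ ρ)) he
          (hmono (φ ρ) fun _ _ h => h) P0 hP0 hbad0 (fun hb => hcw hb.2)
        exact ihn _ (lt_of_lt_of_le hlt hn) C Ps' hl' hZ' (φ ρ) (hφA ρ) (hφc ρ) le_rfl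

theorem LS (m : ℕ) : Lm Y FF m ∧ Sm Y FF m := by
  induction m with
  | zero =>
    refine ⟨Lm_zero Y, fun D Ps hl hZ g hg hgc => ?_⟩
    exact Sm_aux Y hFF hadd (Lm_zero Y) _ D Ps hl hZ g hg hgc le_rfl
  | succ m ih =>
    have h1 := Lm_succ Y hFF hadd ih.1 ih.2
    refine ⟨h1, fun D Ps hl hZ g hg hgc => ?_⟩
    exact Sm_aux Y hFF hadd h1 _ D Ps hl hZ g hg hgc le_rfl

end core

end Vale.Agent.P329.H366
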