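import Vale.Agent.P329.H366.Coh

/-!
# Rotation: non-coboundaries stay non-coboundaries; good walks; null labels; gauge
-/

namespace Vale.Agent.P329.H366
open Filter
open Vale.Agent.P329.H817 (TL)

variable {α : Type} {p : ℕ} {A : (List α → ZMod p) → Prop} {M : Filter (List α)}
  {Cap : (List α → ZMod p) → Prop}

theorem Cob.congr {h h' : List α → ZMod p} (hc : Cob A M h) (he : ∀ᶠ v in M, h v = h' v) :
    Cob A M h' := by
  obtain ⟨ψ, h1, h2⟩ := hc
  exact ⟨ψ, h1, by filter_upwards [h2, he] with v e1 e2; rw [← e2, e1]⟩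

theorem Cob.add_cob {h k : List α → ZMod p} (hA : Alg0 A) (hc : Cob A M h) (hk : Cob A M k) :
    Cob A M fun v => h v + k v := by
  obtain ⟨ψ, h1, h2⟩ := hc
  obtain ⟨χ, h3, h4⟩ := hk
  exact ⟨_, hA.add h1 h3, by filter_upwards [h2, h4] with v e1 e2; rw [e1, e2]; ring⟩

theorem Cob.sub_cob {h k : List α → ZMod p} (hA : Alg0 A) (hc : Cob A M h) (hk : Cob A M k) :
    Cob A M fun v => h v - k v := by
  obtain ⟨ψ, h1, h2⟩ := hc
  obtain ⟨χ, h3, h4⟩ := hk
  exact ⟨_, hA.sub h1 h3, by filter_upwards [h2, h4] with v e1 e2; rw [e1, e2]; ring⟩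

theorem Good.congr {h h' : List α → ZMod p} (hg : Good A M h) (he : ∀ᶠ v in M, h v = h' v) :
    Good A M h' := by
  rcases hg with hg | ⟨h1, h2⟩
  · exact Or.inl fun hc => hg (hc.congr (he.mono fun v e => e.symm))
  · refine Or.inr ⟨?_, ?_⟩
    · filter_upwards [h1, he] with v e1 e2
      rwa [← e2]
    · refine (h2.and_eventually he).mono ?_
      rintro v ⟨e1, e2⟩
      rwa [← e2]

section rot

variable [Fact p.Prime] (Y : Sys α p Cap) {D : Y.Code} {h : List α → ZMod p}

/-- fullness -/
theorem full (hU : Y.U D h) (hM : MinInv M) (hn : ¬ Cob (Y.A D) M h) :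
    ∀ s f, Y.A D f → (∀ᶠ v in M, NN h v = s → f v = 0) → ∀ᶠ v in M, f v = 0 := by
  rcases dichotomy (Y.alg D) hM (Y.U_A D h hU) (NN h) (NN_step (Y.h_nil hU)) with ⟨ψ, h1, h2⟩ | h3
  · exfalso
    refine hn ⟨ψ, h1, ?_⟩
    filter_upwards [h2, hM.inv.eventually h2] with v e1 e2
    have := NN_step (Y.h_nil hU) v
    rw [← e1, ← e2, this]; ring
  · exact h3

theorem rot [Finite α] (hU : Y.U D h) (ρ : ZMod p) (hM : MinInv M)
    (hf : ∃ᶠ v in M, Y.w (Y.nx D h ρ) v ≠ 0) (hn : ¬ Cob (Y.A D) M h)
    (θ : ZMod p → List α → ZMod p) (hθ : ∀ s, Y.A D (θ s))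
    (hc : Cob (Y.A (Y.nx D h ρ)) M fun v => θ (NN h v) v) :
    Cob (Y.A D) M fun v => ∑ s, θ s v := by
  obtain ⟨a, ha, h1⟩ := hc
  obtain ⟨b, hb, h2⟩ := reduce Y hU ρ hM hf ha
  have hA := (Y.alg D).toAlg0
  have hfull := full Y hU hM hn
  have hbt : ∀ s, Y.A D fun v => b (s - h v) v.tail := by
    intro s
    exact hA.sel (Y.U_A D h hU) (fun r v => b (s - r) v.tail) fun r => (Y.alg D).tail _ (hb _)
  have h3 : ∀ s, ∀ᶠ v in M, θ s v - (b s v - b (s - h v) v.tail) = 0 := by
    intro s
    refine hfull s _ (hA.sub (hθ s) (hA.sub (hb s) (hbt s))) ?_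
    filter_upwards [h1, h2, hM.inv.eventually h2] with v e1 e2 e3 e4
    have e5 : NN h v.tail = NN h v - h v := by
      rw [NN_step (Y.h_nil hU) v]; ring
    rw [e2, e3, e5, e4] at e1
    rw [e1]; ring
  refine ⟨fun v => ∑ s, b s v, hA.sum _ _ hb, ?_⟩
  have h4 : ∀ᶠ v in M, ∀ s, θ s v - (b s v - b (s - h v) v.tail) = 0 := by
    rw [Filter.eventually_all]; exact h3
  filter_upwards [h4] with v hv
  have e1 : ∀ s, θ s v = b s v - b (s - h v) v.tail := fun s => sub_eq_zero.1 (hv s)
  calc ∑ s, θ s v = ∑ s, (b s v - b (s - h v) v.tail) := Finset.sum_congr rfl fun s _ => e1 s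
    _ = ∑ s, b s v - ∑ s, b (s - h v) v.tail := Finset.sum_sub_distrib _ _
    _ = ∑ s, b s v - ∑ s, b s v.tail := by
        have e2 := Equiv.sum_comp (Equiv.subRight (h v)) fun s => b s v.tail
        simp only [Equiv.subRight_apply] at e2
        rw [e2]

/-- a non-coboundary gives frequent cuts and a non-coboundary -/
theorem noncob_nx [Finite α] (hU : Y.U D h) (ρ : ZMod p) (hM : MinInv M)
    (hn : ¬ Cob (Y.A D) M h) :
    (∃ᶠ v in M, Y.w (Y.nx D h ρ) v ≠ 0) ∧ ¬ Cob (Y.A (Y.nx D h ρ)) M (Y.w (Y.nx D h ρ)) := by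
  classical
  have hfull := full Y hU hM hn
  have hA := (Y.alg D).toAlg0
  have hf : ∃ᶠ v in M, Y.w (Y.nx D h ρ) v ≠ 0 := by
    intro hc
    refine hn ⟨fun _ => 0, hA.const 0, ?_⟩
    have := hfull ρ h (Y.U_A D h hU) (by
      filter_upwards [hc] with v e1 e2
      have e3 : Y.w (Y.nx D h ρ) v = 0 := by simpa using e1
      rwa [Y.nx_w D h ρ hU, if_pos e2] at e3)
    filter_upwards [this] with v e1
    simpa using e1
  refine ⟨hf, fun hc => hn ?_⟩
  have := rot Y hU ρ hM hf hn (fun s v => if s = ρ then h v else 0) (fun s => by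
    by_cases hs : s = ρ
    · simpa [hs] using Y.U_A D h hU
    · simpa [hs] using hA.const 0) (hc.congr (Filter.Eventually.of_forall fun v => by
      rw [Y.nx_w D h ρ hU]))
  refine this.congr (Filter.Eventually.of_forall fun v => ?_)
  simp

theorem good_nx [Finite α] (hU : Y.U D h) (ρ : ZMod p) (hM : MinInv M)
    (hg : Good (Y.A D) M h) :
    (∃ᶠ v in M, Y.w (Y.nx D h ρ) v ≠ 0) ∧ Good (Y.A (Y.nx D h ρ)) M (Y.w (Y.nx D h ρ)) := by
  rcases hg with hn | ⟨h01, hfr⟩
  · exact ⟨(noncob_nx Y hU ρ hM hn).1, Or.inl (noncob_nx Y hU ρ hM hn).2⟩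
  · have hf : ∃ᶠ v in M, Y.w (Y.nx D h ρ) v ≠ 0 := by
      intro hc
      have key : ∀ k : ℕ, ∀ᶠ v in M, NN h v = ρ + k → h v = 0 := by
        intro k
        induction k with
        | zero =>
          filter_upwards [hc] with v e1 e2
          have e3 : Y.w (Y.nx D h ρ) v = 0 := by simpa using e1
          rwa [Y.nx_w D h ρ hU, if_pos (by simpa using e2)] at e3
        | succ k ih =>
          obtain ⟨n0, h0⟩ := hM.syn (S := {v | h v ≠ 0}) hfr
          filter_upwards [h01, hM.inv.eventually h0, hM.inv.eventually (hM.ev_all ih n0)]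
            with v e1 e2 e3 e4
          rcases e1 with e1 | e1
          · exact e1
          · exfalso
            have e5 : NN h v.tail = ρ + k := by
              have := NN_step (Y.h_nil hU) v
              rw [e4, e1] at this
              push_cast at this
              have h6 : NN h v.tail = (ρ + (k + 1)) - 1 := by rw [this]; ring
              rw [h6]; ring
            obtain ⟨j, hj, hjS⟩ := e2
            -- all smaller drops have `h = 0`
            have h7 : ∀ i ≤ j, NN h (v.tail.drop i) = ρ + k := by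
              intro i
              induction i with
              | zero => intro _; simpa using e5
              | succ i ihi =>
                intro hi
                have e6 := ihi (by omega)
                have e7 := e3 i (by omega) e6
                have e8 := NN_step (Y.h_nil hU) (v.tail.drop i)
                rw [e7, add_zero, List.tail_drop] at e8
                rw [← e8, e6]
            exact hjS (e3 j hj (h7 j le_rfl))
      have key2 : ∀ᶠ v in M, h v = 0 := by
        have : ∀ᶠ v in M, ∀ s : ZMod p, NN h v = s → h v = 0 := by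
          rw [Filter.eventually_all]
          intro s
          have := key (s - ρ).val
          have e : ρ + (((s - ρ).val : ℕ) : ZMod p) = s := by
            rw [ZMod.natCast_val, ZMod.cast_id]; ring
          rwa [e] at this
        exact this.mono fun v hv => hv _ rfl
      exact hfr (key2.mono fun v hv => by simpa using hv)
    refine ⟨hf, Or.inr ⟨?_, hf⟩⟩
    filter_upwards [h01] with v e1
    rw [Y.nx_w D h ρ hU]
    by_cases e2 : NN h v = ρ
    · simpa [e2] using e1
    · simp [e2]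

/-- null splitting keeps non-coboundaries -/
theorem null_noncob [Finite α] (ρ : ZMod p) (hM : MinInv M)
    (hn : ¬ Cob (Y.A D) M (Y.w D)) {g φ η : List α → ZMod p} (hg : Y.A D g)
    (hη : Y.A (Y.nx D (Y.w D) ρ) η)
    (hid : ∀ v, g v * (Y.w D v)⁻¹ * ((if NN (Y.w D) v.tail = ρ then 1 else 0) -
      (if NN (Y.w D) v = ρ then 1 else 0)) = φ v + η v - η v.tail) :
    ¬ Cob (Y.A (Y.nx D (Y.w D) ρ)) M fun v => Y.w (Y.nx D (Y.w D) ρ) v + φ v := by
  classical
  intro hc
  have hU := Y.w_U D
  have hA := (Y.alg D).toAlg0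
  have hA' := (Y.alg (Y.nx D (Y.w D) ρ)).toAlg0
  have hwA := Y.U_A D _ hU
  set u : List α → ZMod p := fun v => g v * (Y.w D v)⁻¹ with hu
  have huA : Y.A D u := hA.bin (fun a b => a * b⁻¹) _ _ hg hwA
  let θ : ZMod p → List α → ZMod p := fun s v => (if s = ρ then Y.w D v else 0) +
    u v * ((if s - Y.w D v = ρ then 1 else 0) - (if s = ρ then 1 else 0))
  have hθ : ∀ s, Y.A D (θ s) := by
    intro s
    exact hA.bin (fun a b => (if s = ρ then a else 0) +
      b * ((if s - a = ρ then 1 else 0) - (if s = ρ then 1 else 0))) _ _ hwA huA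
  have hf := (noncob_nx Y hU ρ hM hn).1
  have h1 : Cob (Y.A (Y.nx D (Y.w D) ρ)) M fun v => θ (NN (Y.w D) v) v := by
    have h2 : Cob (Y.A (Y.nx D (Y.w D) ρ)) M fun v => η v - η v.tail :=
      ⟨η, hη, Filter.Eventually.of_forall fun v => rfl⟩
    refine (hc.add_cob hA' h2).congr (Filter.Eventually.of_forall fun v => ?_)
    have e1 := hid v
    have e2 : NN (Y.w D) v.tail = NN (Y.w D) v - Y.w D v := by
      rw [NN_step (Y.h_nil hU) v]; ring
    rw [e2] at e1
    simp only [θ, hu]
    rw [Y.nx_w D _ ρ hU, e1]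
    by_cases e3 : NN (Y.w D) v = ρ
    · simp [e3]; ring
    · simp [e3]; ring
  have h3 := rot Y hU ρ hM hf hn θ hθ h1
  refine hn (h3.congr (Filter.Eventually.of_forall fun v => ?_))
  simp only [θ]
  rw [Finset.sum_add_distrib, ← Finset.mul_sum, Finset.sum_sub_distrib]
  have e4 : ∑ s : ZMod p, (if s - Y.w D v = ρ then (1 : ZMod p) else 0) = 1 := by
    have e5 := Equiv.sum_comp (Equiv.subRight (Y.w D v)) fun s => if s = ρ then (1 : ZMod p) else 0
    simp only [Equiv.subRight_apply] at e5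
    rw [e5]
    simp
  rw [e4]
  simp

/-- null splitting of a label which vanishes along the zone -/
theorem null_fl (hM : MinInv M) {D' : Y.Code}
    {g φ : List α → ZMod p} (hf : ∃ᶠ v in M, Y.w D' v ≠ 0)
    (h9 : ∀ (v : List α) (J : ℕ), (∃ i, 1 ≤ i ∧ i ≤ J ∧ Y.w D' (v.drop i) ≠ 0) →
      (∀ j ≤ J, g (v.drop j) = 0) → φ v = 0)
    (hg : ∀ᶠ v in M, g v = 0) : ∀ᶠ v in M, φ v = 0 := by
  obtain ⟨n0, h0⟩ := hM.syn (S := {v | Y.w D' v ≠ 0}) hf
  filter_upwards [hM.inv.eventually h0, hM.ev_all hg (n0 + 1)] with v e1 e2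
  obtain ⟨j, hj, hjS⟩ := e1
  refine h9 v (n0 + 1) ⟨j + 1, by omega, by omega, ?_⟩ e2
  simpa [List.drop_tail] using hjS

/-- value at the last cut, eventually -/
theorem til_ev (hM : MinInv M) {f f' : List α → ZMod p}
    (hf : ∃ᶠ v in M, Y.w D v ≠ 0)
    (h1 : ∀ v, f' v = if Y.w D v ≠ 0 then f v else (if v = [] then 0 else f' v.tail))
    (h2 : ∀ᶠ v in M, Y.w D v = 0 → f v = f v.tail) : ∀ᶠ v in M, f' v = f v := by
  obtain ⟨n0, h0⟩ := hM.syn (S := {v | Y.w D v ≠ 0}) hf
  filter_upwards [h0, hM.ev_all h2 n0] with v e1 e2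
  obtain ⟨j, hj, hjS⟩ := e1
  have hjS' : Y.w D (v.drop j) ≠ 0 := hjS
  -- backwards from `j`
  have key : ∀ i, i ≤ j → f' (v.drop (j - i)) = f (v.drop (j - i)) := by
    intro i
    induction i with
    | zero =>
      intro _
      rw [h1, Nat.sub_zero, if_pos hjS']
    | succ i ih =>
      intro hi
      by_cases e3 : Y.w D (v.drop (j - (i + 1))) = 0
      · have hne : v.drop (j - (i + 1)) ≠ [] := by
          intro e
          have : v.drop j = [] := by
            have e5 : v.length ≤ j - (i + 1) := by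
              have := congrArg List.length e
              simp at this; omega
            exact List.drop_eq_nil_of_le (by omega)
          exact hjS' (by rw [this]; exact Y.w_nil D)
        have e4 : (v.drop (j - (i + 1))).tail = v.drop (j - i) := by
          rw [List.tail_drop]; congr 1; omega
        rw [h1, if_neg (by simpa using e3), if_neg hne, e4, ih (by omega),
          e2 (j - (i + 1)) (by omega) e3, e4]
      · rw [h1, if_pos e3]
  have := key j le_rfl
  simpa using this

theorem NN_gauge {φ f' : List α → ZMod p} (h0 : f' [] = 0) :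
    NN φ = fun v => NN (fun v => φ v - (f' v - f' v.tail)) v + f' v := by
  funext v
  induction v with
  | nil => simp [NN_nil, h0]
  | cons b v ih => rw [NN_cons, NN_cons, ih]; simp only [List.tail_cons]; ring

end rot

end Vale.Agent.P329.H366
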